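import Mathlib
import Vale.Agent.Lib.P037.helper29.Cut

namespace Vale.Agent.Results.P037.A_FewRowTypes

open Finset Vale.Agent.Lib.P037.helper29

/-- The ordered copies of the 2 x 2 pattern `H` in the binary n x n matrix `A`:
rows `r1 < r2` and columns `c1 < c2` (stored as `((r1, r2), (c1, c2))`) with
`A r_i c_j = H i j` for all four entries. -/
def copies {n : ℕ} (H : Fin 2 → Fin 2 → Bool) (A : Fin n → Fin n → Bool) :
    Finset ((Fin n × Fin n) × (Fin n × Fin n)) :=
  univ.filter (fun q => q.1.1 < q.1.2 ∧ q.2.1 < q.2.2 ∧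
    A q.1.1 q.2.1 = H 0 0 ∧ A q.1.1 q.2.2 = H 0 1 ∧
    A q.1.2 q.2.1 = H 1 0 ∧ A q.1.2 q.2.2 = H 1 1)

/-- The entries in which two binary n x n matrices differ. -/
def changes {n : ℕ} (A B : Fin n → Fin n → Bool) : Finset (Fin n × Fin n) :=
  univ.filter (fun p => A p.1 p.2 ≠ B p.1 p.2)

section proof

variable {n : ℕ} (H : Fin 2 → Fin 2 → Bool) (A : Fin n → Fin n → Bool)

/-- row predicate: row `r` of `A` equals the vector `u` -/
def rowIs (u : Fin n → Bool) : Fin n → Prop := fun r => A r = u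

instance (u : Fin n → Bool) : DecidablePred (rowIs A u) := fun r => by
  unfold rowIs; infer_instance

/-- column predicate: the pair `(u c, w c)` is the left column of `H` -/
def colL (u w : Fin n → Bool) : Fin n → Prop := fun c => u c = H 0 0 ∧ w c = H 1 0

/-- column predicate: the pair `(u c, w c)` is the right column of `H` -/
def colR (u w : Fin n → Bool) : Fin n → Prop := fun c => u c = H 0 1 ∧ w c = H 1 1

instance (u w : Fin n → Bool) : DecidablePred (colL H u w) := fun c => by
  unfold colL; infer_instance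

instance (u w : Fin n → Bool) : DecidablePred (colR H u w) := fun c => by
  unfold colR; infer_instance

/-- number of row pairs `r1 < r2` with rows `u`, `w` -/
def pc (u w : Fin n → Bool) : ℕ := (inv (rowIs A u) (rowIs A w)).card

/-- number of column pairs `c1 < c2` completing a copy on rows `u`, `w` -/
def vc (u w : Fin n → Bool) : ℕ := (inv (colL H u w) (colR H u w)).card

theorem pc_mul_vc_le (u w : Fin n → Bool) :
    pc A u w * vc H u w ≤ (copies H A).card := by
  unfold pc vc
  rw [← Finset.card_product]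
  apply Finset.card_le_card
  intro q hq
  rw [Finset.mem_product] at hq
  obtain ⟨h1, h2⟩ := hq
  unfold inv at h1 h2
  rw [mem_filter] at h1 h2
  obtain ⟨-, hr, hu, hw⟩ := h1
  obtain ⟨-, hc, hL, hR⟩ := h2
  unfold rowIs at hu hw
  unfold colL at hL
  unfold colR at hR
  unfold copies
  rw [mem_filter]
  refine ⟨mem_univ _, hr, hc, ?_, ?_, ?_, ?_⟩
  · rw [hu]; exact hL.1
  · rw [hu]; exact hR.1
  · rw [hw]; exact hL.2
  · rw [hw]; exact hR.2

/-- rows deleted for the ordered pair of row vectors `(u, w)` -/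
def dRow (u w : Fin n → Bool) : Finset (Fin n) :=
  if pc A u w ≤ vc H u w then cut (rowIs A u) (rowIs A w) (Nat.sqrt (pc A u w)) else ∅

/-- columns deleted for the ordered pair of row vectors `(u, w)` -/
def dCol (u w : Fin n → Bool) : Finset (Fin n) :=
  if pc A u w ≤ vc H u w then ∅ else cut (colL H u w) (colR H u w) (Nat.sqrt (vc H u w))

theorem dRow_dCol_card (u w : Fin n → Bool) :
    (dRow H A u w).card + (dCol H A u w).card ≤
      2 * Nat.sqrt (Nat.sqrt (copies H A).card) := by
  have hpv := pc_mul_vc_le H A u w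
  unfold dRow dCol
  by_cases h : pc A u w ≤ vc H u w
  · rw [if_pos h, if_pos h]
    have h1 : pc A u w ≤ Nat.sqrt (copies H A).card := by
      rw [Nat.le_sqrt]
      exact le_trans (Nat.mul_le_mul_left _ h) hpv
    have h2 : Nat.sqrt (pc A u w) ≤ Nat.sqrt (Nat.sqrt (copies H A).card) := Nat.sqrt_le_sqrt h1
    have h3 := cut_card (rowIs A u) (rowIs A w)
    have h4 : (inv (rowIs A u) (rowIs A w)).card = pc A u w := rfl
    rw [h4] at h3
    simp only [card_empty, add_zero]
    omega
  · rw [if_neg h, if_neg h]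
    have h' : vc H u w ≤ pc A u w := le_of_lt (not_le.mp h)
    have h1 : vc H u w ≤ Nat.sqrt (copies H A).card := by
      rw [Nat.le_sqrt]
      exact le_trans (Nat.mul_le_mul_right _ h') hpv
    have h2 : Nat.sqrt (vc H u w) ≤ Nat.sqrt (Nat.sqrt (copies H A).card) := Nat.sqrt_le_sqrt h1
    have h3 := cut_card (colL H u w) (colR H u w)
    have h4 : (inv (colL H u w) (colR H u w)).card = vc H u w := rfl
    rw [h4] at h3
    simp only [card_empty, zero_add]
    omega

/-- all deleted rows -/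
def delRows : Finset (Fin n) :=
  ((univ.image A) ×ˢ (univ.image A)).biUnion (fun p => dRow H A p.1 p.2)

/-- all deleted columns -/
def delCols : Finset (Fin n) :=
  ((univ.image A) ×ˢ (univ.image A)).biUnion (fun p => dCol H A p.1 p.2)

theorem del_card :
    (delRows H A).card + (delCols H A).card ≤
      (univ.image A).card * (univ.image A).card *
        (2 * Nat.sqrt (Nat.sqrt (copies H A).card)) := by
  unfold delRows delCols
  have h1 := Finset.card_biUnion_le (s := (univ.image A) ×ˢ (univ.image A))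
    (t := fun p => dRow H A p.1 p.2)
  have h2 := Finset.card_biUnion_le (s := (univ.image A) ×ˢ (univ.image A))
    (t := fun p => dCol H A p.1 p.2)
  have h3 : ∑ p ∈ (univ.image A) ×ˢ (univ.image A),
      ((dRow H A p.1 p.2).card + (dCol H A p.1 p.2).card) ≤
      ((univ.image A) ×ˢ (univ.image A)).card •
        (2 * Nat.sqrt (Nat.sqrt (copies H A).card)) := by
    apply Finset.sum_le_card_nsmul
    intro p _
    exact dRow_dCol_card H A p.1 p.2
  rw [Finset.sum_add_distrib, Finset.card_product, smul_eq_mul] at h3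
  omega

/-- the repaired matrix: deleted rows and columns are filled with the constant `b` -/
def repair (b : Bool) : Fin n → Fin n → Bool :=
  fun r c => if r ∈ delRows H A ∨ c ∈ delCols H A then b else A r c

theorem repair_eq (b : Bool) {r c : Fin n} (hr : r ∉ delRows H A) (hc : c ∉ delCols H A) :
    repair H A b r c = A r c := by
  unfold repair
  rw [if_neg (not_or.mpr ⟨hr, hc⟩)]

theorem repair_free (b : Bool)
    (hb0 : ¬ (H 0 0 = b ∧ H 0 1 = b)) (hb1 : ¬ (H 1 0 = b ∧ H 1 1 = b))
    (hc0 : ¬ (H 0 0 = b ∧ H 1 0 = b)) (hc1 : ¬ (H 0 1 = b ∧ H 1 1 = b)) :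
    copies H (repair H A b) = ∅ := by
  apply Finset.eq_empty_of_forall_notMem
  intro q hq
  unfold copies at hq
  rw [mem_filter] at hq
  obtain ⟨-, hr, hc, e00, e01, e10, e11⟩ := hq
  have hr1 : q.1.1 ∉ delRows H A := by
    intro hmem
    apply hb0
    constructor
    · rw [← e00]; unfold repair; rw [if_pos (Or.inl hmem)]
    · rw [← e01]; unfold repair; rw [if_pos (Or.inl hmem)]
  have hr2 : q.1.2 ∉ delRows H A := by
    intro hmem
    apply hb1
    constructor
    · rw [← e10]; unfold repair; rw [if_pos (Or.inl hmem)]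
    · rw [← e11]; unfold repair; rw [if_pos (Or.inl hmem)]
  have hc1' : q.2.1 ∉ delCols H A := by
    intro hmem
    apply hc0
    constructor
    · rw [← e00]; unfold repair; rw [if_pos (Or.inr hmem)]
    · rw [← e10]; unfold repair; rw [if_pos (Or.inr hmem)]
  have hc2' : q.2.2 ∉ delCols H A := by
    intro hmem
    apply hc1
    constructor
    · rw [← e01]; unfold repair; rw [if_pos (Or.inr hmem)]
    · rw [← e11]; unfold repair; rw [if_pos (Or.inr hmem)]
  have a00 : A q.1.1 q.2.1 = H 0 0 := by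
    rw [← e00, repair_eq H A b hr1 hc1']
  have a01 : A q.1.1 q.2.2 = H 0 1 := by
    rw [← e01, repair_eq H A b hr1 hc2']
  have a10 : A q.1.2 q.2.1 = H 1 0 := by
    rw [← e10, repair_eq H A b hr2 hc1']
  have a11 : A q.1.2 q.2.2 = H 1 1 := by
    rw [← e11, repair_eq H A b hr2 hc2']
  have hmemT : (A q.1.1, A q.1.2) ∈ (univ.image A) ×ˢ (univ.image A) := by
    rw [Finset.mem_product]
    exact ⟨Finset.mem_image_of_mem A (mem_univ _), Finset.mem_image_of_mem A (mem_univ _)⟩
  by_cases h : pc A (A q.1.1) (A q.1.2) ≤ vc H (A q.1.1) (A q.1.2)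
  · have hcut := cut_hits (rowIs A (A q.1.1)) (rowIs A (A q.1.2))
      (Nat.sqrt (pc A (A q.1.1) (A q.1.2))) q.1.1 q.1.2 hr rfl rfl
    have hsub : cut (rowIs A (A q.1.1)) (rowIs A (A q.1.2))
        (Nat.sqrt (pc A (A q.1.1) (A q.1.2))) ⊆ delRows H A := by
      intro x hx
      unfold delRows
      rw [Finset.mem_biUnion]
      refine ⟨(A q.1.1, A q.1.2), hmemT, ?_⟩
      unfold dRow
      rw [if_pos h]
      exact hx
    rcases hcut with h1 | h2
    · exact hr1 (hsub h1)
    · exact hr2 (hsub h2)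
  · have hcut := cut_hits (colL H (A q.1.1) (A q.1.2)) (colR H (A q.1.1) (A q.1.2))
      (Nat.sqrt (vc H (A q.1.1) (A q.1.2))) q.2.1 q.2.2 hc ⟨a00, a10⟩ ⟨a01, a11⟩
    have hsub : cut (colL H (A q.1.1) (A q.1.2)) (colR H (A q.1.1) (A q.1.2))
        (Nat.sqrt (vc H (A q.1.1) (A q.1.2))) ⊆ delCols H A := by
      intro x hx
      unfold delCols
      rw [Finset.mem_biUnion]
      refine ⟨(A q.1.1, A q.1.2), hmemT, ?_⟩
      unfold dCol
      rw [if_neg h]
      exact hx
    rcases hcut with h1 | h2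
    · exact hc1' (hsub h1)
    · exact hc2' (hsub h2)

theorem repair_changes (b : Bool) :
    (changes A (repair H A b)).card ≤ ((delRows H A).card + (delCols H A).card) * n := by
  have hsub : changes A (repair H A b) ⊆
      (delRows H A ×ˢ univ) ∪ (univ ×ˢ delCols H A) := by
    intro p hp
    unfold changes at hp
    rw [mem_filter] at hp
    rw [mem_union, Finset.mem_product, Finset.mem_product]
    by_contra hcon
    apply hp.2
    unfold repair
    rw [if_neg]
    intro h
    apply hcon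
    rcases h with h | h
    · exact Or.inl ⟨h, mem_univ _⟩
    · exact Or.inr ⟨mem_univ _, h⟩
  calc (changes A (repair H A b)).card
      ≤ ((delRows H A ×ˢ univ) ∪ (univ ×ˢ delCols H A)).card := Finset.card_le_card hsub
    _ ≤ (delRows H A ×ˢ (univ : Finset (Fin n))).card +
          ((univ : Finset (Fin n)) ×ˢ delCols H A).card := Finset.card_union_le _ _
    _ = ((delRows H A).card + (delCols H A).card) * n := by
        rw [Finset.card_product, Finset.card_product, Finset.card_univ, Fintype.card_fin]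
        ring

theorem fill_exists (hrow : H 0 ≠ H 1) (hcol : (fun i => H i 0) ≠ (fun i => H i 1)) :
    ∃ b : Bool, ¬ (H 0 0 = b ∧ H 0 1 = b) ∧ ¬ (H 1 0 = b ∧ H 1 1 = b) ∧
      ¬ (H 0 0 = b ∧ H 1 0 = b) ∧ ¬ (H 0 1 = b ∧ H 1 1 = b) := by
  have hrow' : ¬ (H 0 0 = H 1 0 ∧ H 0 1 = H 1 1) := by
    rintro ⟨h1, h2⟩
    apply hrow
    funext j
    fin_cases j
    · exact h1
    · exact h2
  have hcol' : ¬ (H 0 0 = H 0 1 ∧ H 1 0 = H 1 1) := by
    rintro ⟨h1, h2⟩
    apply hcol
    funext i
    fin_cases i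
    · exact h1
    · exact h2
  revert hrow' hcol'
  generalize H 0 0 = a
  generalize H 0 1 = b
  generalize H 1 0 = c
  generalize H 1 1 = d
  revert a b c d
  decide

end proof

/-- **Polynomial removal for hosts with few distinct rows.**
Let `H` be a 2 x 2 binary pattern with two distinct rows and two distinct columns, and let
`A` be a binary n x n matrix with at most `t` distinct rows. If every `H`-free binary
n x n matrix differs from `A` in at least `ε n^2` entries, then `A` contains at least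
`ε^4 n^4 / (16 t^8)` ordered copies of `H`. -/
theorem result (H : Fin 2 → Fin 2 → Bool)
    (hrow : H 0 ≠ H 1) (hcol : (fun i => H i 0) ≠ (fun i => H i 1))
    (n t : ℕ) (A : Fin n → Fin n → Bool)
    (ht : (univ.image A).card ≤ t)
    (ε : ℝ) (hε : 0 ≤ ε)
    (hfar : ∀ B : Fin n → Fin n → Bool, copies H B = ∅ →
      ε * (n : ℝ) ^ 2 ≤ ((changes A B).card : ℝ)) :
    ε ^ 4 * (n : ℝ) ^ 4 ≤ 16 * (t : ℝ) ^ 8 * ((copies H A).card : ℝ) := by
  obtain ⟨b, hb0, hb1, hc0, hc1⟩ := fill_exists H hrow hcol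
  have hfree := repair_free H A b hb0 hb1 hc0 hc1
  have h1 := hfar _ hfree
  have h2 := repair_changes H A b
  have h3 := del_card H A
  set N := (copies H A).card with hN
  set q := Nat.sqrt (Nat.sqrt N) with hq
  have hq4 : q * q * (q * q) ≤ N := by
    have e1 : q * q ≤ Nat.sqrt N := Nat.sqrt_le (Nat.sqrt N)
    have e2 : Nat.sqrt N * Nat.sqrt N ≤ N := Nat.sqrt_le N
    exact le_trans (Nat.mul_le_mul e1 e1) e2
  have h4 : (changes A (repair H A b)).card ≤ t * t * (2 * q) * n := by
    have : (univ.image A).card * (univ.image A).card * (2 * q) ≤ t * t * (2 * q) :=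
      Nat.mul_le_mul_right _ (Nat.mul_le_mul ht ht)
    exact le_trans h2 (Nat.mul_le_mul_right _ (le_trans h3 this))
  have h5 : ε * (n : ℝ) ^ 2 ≤ (t : ℝ) * t * (2 * q) * n := by
    have : ((changes A (repair H A b)).card : ℝ) ≤ ((t * t * (2 * q) * n : ℕ) : ℝ) := by
      exact_mod_cast h4
    push_cast at this
    linarith
  rcases Nat.eq_zero_or_pos n with hn | hn
  · subst hn
    simp
    positivity
  · have hn' : (0 : ℝ) < (n : ℝ) := by exact_mod_cast hn
    have h6 : ε * (n : ℝ) ≤ 2 * (t : ℝ) ^ 2 * q := by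
      have : ε * (n : ℝ) * n ≤ 2 * (t : ℝ) ^ 2 * q * n := by nlinarith
      exact le_of_mul_le_mul_right this hn'
    have h7 : 0 ≤ ε * (n : ℝ) := by positivity
    have h8 : (ε * (n : ℝ)) ^ 4 ≤ (2 * (t : ℝ) ^ 2 * q) ^ 4 := pow_le_pow_left₀ h7 h6 4
    have h9 : ((q : ℝ)) ^ 4 ≤ (N : ℝ) := by
      have : ((q * q * (q * q) : ℕ) : ℝ) ≤ (N : ℝ) := by exact_mod_cast hq4
      push_cast at this
      nlinarith
    have h10 : (0 : ℝ) ≤ (t : ℝ) ^ 8 := by positivity
    calc ε ^ 4 * (n : ℝ) ^ 4 = (ε * (n : ℝ)) ^ 4 := by ring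
      _ ≤ (2 * (t : ℝ) ^ 2 * q) ^ 4 := h8
      _ = 16 * (t : ℝ) ^ 8 * (q : ℝ) ^ 4 := by ring
      _ ≤ 16 * (t : ℝ) ^ 8 * (N : ℝ) := by nlinarith

end Vale.Agent.Results.P037.A_FewRowTypes
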