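import Mathlib
import Vale.Agent.Lib.P037.Defs
import Vale.Agent.Lib.P037.helper17.Compl
import Vale.Agent.Lib.P037.helper17.Corner.Final
import Vale.Agent.Lib.P037.helper20.Sym

/-!
# P037: polynomial removal lemma for every `2 x 2` pattern with distinct rows and columns

For each of the ten binary `2 x 2` patterns `H` with two distinct rows and two distinct columns:
if a binary `n x n` matrix `A` differs from every `H`-free matrix in at least `ε n^2` entries,
then `A` contains at least `ε^18 n^4 / (3 * 10^12)` ordered copies of `H`.

The two permutation patterns are treated in `Vale.Agent.Lib.P037.helper17.Main`. The eight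
patterns with exactly one `1` or exactly one `0` reduce, by reversing the row order, reversing
the column order and complementing (`Vale.Agent.Lib.P037.helper20.Sym`), to the corner pattern
`[[1, 0], [0, 0]]`, treated in `Vale.Agent.Lib.P037.helper17.Corner` as follows.

Sample `r2` columns and `r1 + r3` anchor rows, the first `r1` of them being the pivots.
Step 1: for every pair of sampled columns fill a half-graph cut of rows with ones, so that no
copy is left inside the sampled columns. Step 2: for every pair `u < u'` of sampled columns,
every row that is zero in both and lies strictly below all anchor rows that are zero in both is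
set to one from `u'` on. Neither step creates copies, and afterwards the lowest common zero of
two sampled columns is always an anchor. Step 3: link two rows at position `c` if they have a
common zero in a sampled column at or after `c`; the final matrix has a zero at `(i, c)` exactly
if `i` is chained by links to the lowest pivot zero of column `c`. Two rows linked to a common
lower row are linked to each other, hence rows chained to a common row are chained to each
other, and the final matrix has no copy at all. Every row chained to an anchor is linked
directly to an anchor of the chain; so an entry changed from one to zero gives a copy of `A`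
through an anchor row and a sampled column, or the column carries such a copy on two anchor
rows. The entries changed from zero to one are counted by exchangeability (among `r + 1`
independent samples at most one is the strict extreme).
-/

namespace Vale.Agent.Results.P037.B_TwoByTwoDistinctRowsCols

open Vale.Agent.Lib.P037

/-- Polynomial removal lemma for every binary `2 x 2` pattern `H` with two distinct rows and two
distinct columns: if every `H`-free binary `n x n` matrix differs from `A` in at least `ε n^2`
entries, `0 < ε < 1`, then `ε^18 n^4 ≤ 3 * 10^12 * N_H(A)`. -/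
theorem result (H : Fin 2 → Fin 2 → Bool)
    (hrow : H 0 ≠ H 1) (hcol : (fun a => H a 0) ≠ (fun a => H a 1))
    (n : ℕ) (A : BMat n) (ε : ℝ) (hε : 0 < ε) (hε1 : ε < 1)
    (hfar : ∀ B : BMat n, IsFree H B → ε * (n : ℝ) ^ 2 ≤ (Vale.Agent.Lib.P037.hammingDist A B : ℝ)) :
    ε ^ 18 * (n : ℝ) ^ 4 ≤ 3 * 10 ^ 12 * (numCopies H A : ℝ) := by
  have hI : Vale.Agent.Lib.P037.helper20.Removal patI2 18 (3 * 10 ^ 12) :=
    fun n A ε hε hε1 hfar => Vale.Agent.Lib.P037.helper17.removal_I2 n A ε hε hε1 hfar
  have hL : Vale.Agent.Lib.P037.helper20.Removal Vale.Agent.Lib.P037.helper20.patL 18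
      (3 * 10 ^ 12) := by
    intro n A ε hε hε1 hfar
    have h13 := Vale.Agent.Lib.P037.helper17.Corner.removal_L n A ε hε hε1 hfar
    have hN : (0 : ℝ) ≤ (numCopies Vale.Agent.Lib.P037.helper17.Corner.patL A : ℝ) :=
      Nat.cast_nonneg _
    have hpow : ε ^ 18 ≤ ε ^ 13 := pow_le_pow_of_le_one hε.le hε1.le (by norm_num)
    have hn4 : (0 : ℝ) ≤ (n : ℝ) ^ 4 := by positivity
    calc ε ^ 18 * (n : ℝ) ^ 4 ≤ ε ^ 13 * (n : ℝ) ^ 4 := mul_le_mul_of_nonneg_right hpow hn4
      _ ≤ 2 * 10 ^ 10 * (numCopies Vale.Agent.Lib.P037.helper17.Corner.patL A : ℝ) := h13
      _ ≤ 3 * 10 ^ 12 * (numCopies Vale.Agent.Lib.P037.helper17.Corner.patL A : ℝ) :=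
        mul_le_mul_of_nonneg_right (by norm_num) hN
  exact Vale.Agent.Lib.P037.helper20.removal_all 18 (3 * 10 ^ 12) hI hL H hrow hcol n A ε hε hε1
    hfar

end Vale.Agent.Results.P037.B_TwoByTwoDistinctRowsCols
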