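import Mathlib
import Vale.Agent.Lib.P037.Defs
import Vale.Agent.Lib.P037.helper17.All
import Vale.Agent.Lib.P037.helper20.KDefs
import Vale.Agent.Lib.P037.helper20.Block

/-!
# P037: the polynomial removal lemma for block patterns of every size

Let `k ≥ 2`, `0 < a < k`, `0 < b < k`, and let `H` be a binary `k x k` pattern whose first `a`
rows coincide, whose last `k - a` rows coincide, whose first `b` columns coincide and whose last
`k - b` columns coincide; equivalently `H i j = H0 [i ≥ a] [j ≥ b]` for a binary `2 x 2`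
pattern `H0` (`H` is a block blow-up of `H0`).  If a binary `n x n` matrix `A` differs from
every `H`-free matrix in at least `ε n^2` entries, then `A` contains at least
`ε^(3 k^5) n^(2k) / ((3 * 10^12)^(k^5) (4 k^2)^(2k))` ordered copies of `H`.

Proof.  A matrix free of `H0` is free of `H`, so `A` is `ε`-far from `H0`-free and the removal
bound for `2 x 2` patterns (`Vale.Agent.Lib.P037.helper17.removal_two_by_two`) gives
`δ n^4` ordered copies of `H0`, `δ = ε^18 / (3 * 10^12)`.  Four convexity rounds, one per
coordinate (`Vale.Agent.Lib.P037.helper20.box4`), give at least `δ^m n^(2k)` quadruples of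
tuples `(I, J, U, V)` of lengths `a, k - a, b, k - b` all of whose selections are copies of
`H0`, where `m = a (k - a) b (k - b)`.  At most `2 k^2 n^(2k - 1)` of these have a repeated
entry, and sorting maps each of the others to an ordered copy of `H`, at most `k^(2k)` to one
(`Vale.Agent.Lib.P037.helper20.blow_card_le`).  For small `n` one uses that `A`, being far
from `H`-free, has at least one copy.
-/

namespace Vale.Agent.Results.P037.C_BlockPatterns

open Vale.Agent.Lib.P037 Vale.Agent.Lib.P037.helper20

/-- Polynomial removal lemma for block patterns: let `0 < a < k`, `0 < b < k`, let `H0` be any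
binary `2 x 2` pattern and let `H` be the `k x k` pattern with
`H i j = H0 [i ≥ a] [j ≥ b]`.  If every `H`-free binary `n x n` matrix differs from `A` in at
least `ε n^2` entries, `0 < ε < 1`, then
`ε^(3 k^5) n^(2k) ≤ (3 * 10^12)^(k^5) (4 k^2)^(2k) N_H(A)`. -/
theorem result (k a b : ℕ) (ha : 0 < a) (hak : a < k) (hb : 0 < b) (hbk : b < k)
    (H0 : Fin 2 → Fin 2 → Bool) (H : Fin k → Fin k → Bool)
    (hH : ∀ i j, H i j = H0 (if i.val < a then 0 else 1) (if j.val < b then 0 else 1))
    (n : ℕ) (A : BMat n) (ε : ℝ) (hε : 0 < ε) (hε1 : ε < 1)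
    (hfar : ∀ B : BMat n, IsFreeK H B →
      ε * (n : ℝ) ^ 2 ≤ (Vale.Agent.Lib.P037.hammingDist A B : ℝ)) :
    ε ^ (3 * k ^ 5) * (n : ℝ) ^ (2 * k) ≤
      (3 * 10 ^ 12) ^ (k ^ 5) * (4 * (k : ℝ) ^ 2) ^ (2 * k) * (numCopiesK H A : ℝ) :=
  removal_block_uniform k a b ha hak hb hbk H0
    (Vale.Agent.Lib.P037.helper17.removal_two_by_two H0) H hH n A ε hε hε1 hfar

end Vale.Agent.Results.P037.C_BlockPatterns
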