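import Mathlib
import Vale.Agent.Lib.P037.Defs
import Vale.Agent.Lib.P037.helper17.Compl
import Vale.Agent.Lib.P037.helper17.Corner.Final
import Vale.Agent.Lib.P037.helper20.Sym
import Vale.Agent.Lib.P037.helper29.Degen

/-!
# P037: the polynomial removal lemma for every binary `2 x 2` pattern

For every binary `2 x 2` pattern `H`: if a binary `n x n` matrix `A` differs from every `H`-free
matrix in at least `ε n^2` entries, then `A` contains at least `ε^18 n^4 / (3 * 10^12)` ordered
copies of `H`. This is the case `k = 2` of the conjecture, with uniform explicit constants.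

* The six patterns with two equal rows or two equal columns (known cases): direct proof in
  `Vale.Agent.Lib.P037.helper29.Degen` (repair every row to a split row, two convexity steps).
* The two permutation patterns: `Vale.Agent.Lib.P037.helper17.Main`.
* The eight patterns with exactly one `1` or exactly one `0`: reduction by symmetries
  (`Vale.Agent.Lib.P037.helper20.Sym`) to the corner pattern `[[1, 0], [0, 0]]`, which is treated
  in `Vale.Agent.Lib.P037.helper17.Corner` (sampled columns and anchor rows, truncation of the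
  rows below all anchors, chains of links to the lowest pivot zero of each column).
-/

namespace Vale.Agent.Results.P037.C_EveryTwoByTwoPattern

open Vale.Agent.Lib.P037

/-- Polynomial removal lemma for every binary `2 x 2` pattern `H`: if every `H`-free binary
`n x n` matrix differs from `A` in at least `ε n^2` entries, `0 < ε < 1`, then
`ε^18 n^4 ≤ 3 * 10^12 * N_H(A)`. -/
theorem result (H : Fin 2 → Fin 2 → Bool)
    (n : ℕ) (A : BMat n) (ε : ℝ) (hε : 0 < ε) (hε1 : ε < 1)
    (hfar : ∀ B : BMat n, IsFree H B → ε * (n : ℝ) ^ 2 ≤ (Vale.Agent.Lib.P037.hammingDist A B : ℝ)) :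
    ε ^ 18 * (n : ℝ) ^ 4 ≤ 3 * 10 ^ 12 * (numCopies H A : ℝ) := by
  by_cases hdeg : H 0 = H 1 ∨ (fun a => H a 0) = (fun a => H a 1)
  · exact Vale.Agent.Lib.P037.helper29.removal_degenerate H hdeg n A ε hε hε1 hfar
  · have hrow : H 0 ≠ H 1 := fun h => hdeg (Or.inl h)
    have hcol : (fun a => H a 0) ≠ (fun a => H a 1) := fun h => hdeg (Or.inr h)
    have hI : Vale.Agent.Lib.P037.helper20.Removal patI2 18 (3 * 10 ^ 12) :=
      fun n A ε hε hε1 hfar => Vale.Agent.Lib.P037.helper17.removal_I2 n A ε hε hε1 hfar
    have hL : Vale.Agent.Lib.P037.helper20.Removal Vale.Agent.Lib.P037.helper20.patL 18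
        (3 * 10 ^ 12) := by
      intro n A ε hε hε1 hfar
      have h13 := Vale.Agent.Lib.P037.helper17.Corner.removal_L n A ε hε hε1 hfar
      have hN : (0 : ℝ) ≤ (numCopies Vale.Agent.Lib.P037.helper17.Corner.patL A : ℝ) :=
        Nat.cast_nonneg _
      have hpow : ε ^ 18 ≤ ε ^ 13 := pow_le_pow_of_le_one hε.le hε1.le (by norm_num)
      have hn4 : (0 : ℝ) ≤ (n : ℝ) ^ 4 := by positivity
      calc ε ^ 18 * (n : ℝ) ^ 4 ≤ ε ^ 13 * (n : ℝ) ^ 4 := mul_le_mul_of_nonneg_right hpow hn4
        _ ≤ 2 * 10 ^ 10 * (numCopies Vale.Agent.Lib.P037.helper17.Corner.patL A : ℝ) := h13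
        _ ≤ 3 * 10 ^ 12 * (numCopies Vale.Agent.Lib.P037.helper17.Corner.patL A : ℝ) :=
          mul_le_mul_of_nonneg_right (by norm_num) hN
    exact Vale.Agent.Lib.P037.helper20.removal_all 18 (3 * 10 ^ 12) hI hL H hrow hcol n A ε hε
      hε1 hfar

end Vale.Agent.Results.P037.C_EveryTwoByTwoPattern
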